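import Vale.Agent.Results.P079.SeparableReduction

/-!
# P079: Kirk's problem for reflexive spaces reduces to separable reflexive spaces

If every separable reflexive Banach space has the fixed point property for nonexpansive maps, then
every reflexive Banach space has it.
-/

namespace Vale.Agent.Results.P079.ASeparableSpaces

open Set TopologicalSpace

universe u

/-- `X` is reflexive: the canonical map into the double dual is onto. -/
def Reflexive (X : Type u) [NormedAddCommGroup X] [NormedSpace ℝ X] : Prop :=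
  Function.Surjective (NormedSpace.inclusionInDoubleDual ℝ X)

/-- The fixed point property: every nonexpansive self-map of a nonempty closed bounded convex set has a
fixed point (the map is given on all of `X`, only its values on `C` matter). -/
def FPP (X : Type u) [NormedAddCommGroup X] [NormedSpace ℝ X] : Prop :=
  ∀ (C : Set X) (T : X → X), C.Nonempty → IsClosed C → Bornology.IsBounded C → Convex ℝ C →
    MapsTo T C C → (∀ a ∈ C, ∀ b ∈ C, ‖T a - T b‖ ≤ ‖a - b‖) → ∃ x ∈ C, T x = x

theorem reflexive_sub {X : Type u} [NormedAddCommGroup X] [NormedSpace ℝ X] (hX : Reflexive X)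
    (Z : Submodule ℝ X) (hZ : IsClosed (Z : Set X)) : Reflexive Z := by
  intro φ
  let R : StrongDual ℝ X →L[ℝ] StrongDual ℝ Z :=
    (ContinuousLinearMap.compL ℝ Z X ℝ).flip Z.subtypeL
  have hR : ∀ g : StrongDual ℝ X, R g = g.comp Z.subtypeL := fun g => rfl
  obtain ⟨x, hx⟩ := hX (φ.comp R)
  have hxg : ∀ g : StrongDual ℝ X, g x = φ (g.comp Z.subtypeL) := by
    intro g
    have h1 : NormedSpace.inclusionInDoubleDual ℝ X x g = (φ.comp R) g := by rw [hx]
    rw [NormedSpace.dual_def] at h1
    rw [h1, ContinuousLinearMap.comp_apply, hR]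
  have hxZ : x ∈ Z := by
    by_contra hn
    obtain ⟨f, c, hf1, hf2⟩ := geometric_hahn_banach_closed_point Z.convex hZ hn
    have hf0 : ∀ a ∈ Z, f a = 0 := by
      intro a ha
      by_contra h
      have h2 := hf1 (((c + 1) / f a) • a) (Z.smul_mem _ ha)
      rw [map_smul, smul_eq_mul, div_mul_cancel₀ _ h] at h2
      linarith
    have h3 : f.comp Z.subtypeL = 0 := by
      ext z
      exact hf0 z z.2
    have h0 : f x = 0 := by rw [hxg f, h3, map_zero]
    have hc : 0 < c := by
      have := hf1 0 Z.zero_mem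
      simpa using this
    linarith
  refine ⟨⟨x, hxZ⟩, ?_⟩
  ext h
  obtain ⟨g, hg, -⟩ := exists_extension_norm_eq Z h
  have h4 : g.comp Z.subtypeL = h := by
    ext z
    exact hg z
  rw [NormedSpace.dual_def, ← h4, ← hxg g]
  rfl

theorem reduction
    (hsep : ∀ (Z : Type u) [NormedAddCommGroup Z] [NormedSpace ℝ Z] [CompleteSpace Z]
      [SeparableSpace Z], Reflexive Z → FPP Z)
    (X : Type u) [NormedAddCommGroup X] [NormedSpace ℝ X] [CompleteSpace X] (hX : Reflexive X) :
    FPP X := by
  intro C T hne hC hb hconv hT hnon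
  obtain ⟨x₀, hx₀⟩ := hne
  obtain ⟨D, hDC, hxD, hDcl, hDcv, -, hTD, hZsep⟩ :=
    SeparableReduction.result C hC hconv T hT hnon x₀ hx₀
  set Z : Submodule ℝ X := (Submodule.span ℝ D).topologicalClosure with hZdef
  have hZcl : IsClosed (Z : Set X) := Submodule.isClosed_topologicalClosure _
  have hDZ : D ⊆ (Z : Set X) :=
    Submodule.subset_span.trans (Submodule.le_topologicalClosure (Submodule.span ℝ D))
  have : CompleteSpace Z := hZcl.completeSpace_coe
  have : SeparableSpace Z := hZsep.separableSpace
  have hF := hsep Z (reflexive_sub hX Z hZcl)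
  classical
  let C' : Set Z := {z | (z : X) ∈ D}
  let T' : Z → Z := fun z => if h : (z : X) ∈ D then ⟨T z, hDZ (hTD h)⟩ else z
  have hT' : ∀ z : Z, (z : X) ∈ D → ((T' z : Z) : X) = T z := by
    intro z hz
    simp only [T', dif_pos hz]
  obtain ⟨z, hz, hfix⟩ := hF C' T' ⟨⟨x₀, hDZ hxD⟩, hxD⟩ (hDcl.preimage continuous_subtype_val)
    (by
      obtain ⟨M, hM⟩ := isBounded_iff_forall_norm_le.1 hb
      exact isBounded_iff_forall_norm_le.2 ⟨M, fun z hz => hM z (hDC hz)⟩)
    (hDcv.linear_preimage Z.subtype)
    (by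
      intro z hz
      change ((T' z : Z) : X) ∈ D
      rw [hT' z hz]
      exact hTD hz)
    (by
      intro a ha b hb'
      have h1 : ‖T' a - T' b‖ = ‖T (a : X) - T (b : X)‖ := by
        rw [Submodule.coe_norm, Submodule.coe_sub, hT' a ha, hT' b hb']
      have h2 : ‖a - b‖ = ‖(a : X) - (b : X)‖ := by
        rw [Submodule.coe_norm, Submodule.coe_sub]
      rw [h1, h2]
      exact hnon a (hDC ha) b (hDC hb'))
  refine ⟨z, hDC hz, ?_⟩
  rw [← hT' z hz, hfix]

/-- Kirk's problem for reflexive Banach spaces is equivalent to its restriction to separable spaces. -/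
theorem result :
    (∀ (Z : Type u) [NormedAddCommGroup Z] [NormedSpace ℝ Z] [CompleteSpace Z]
      [SeparableSpace Z], Reflexive Z → FPP Z) ↔
    (∀ (X : Type u) [NormedAddCommGroup X] [NormedSpace ℝ X] [CompleteSpace X],
      Reflexive X → FPP X) :=
  ⟨fun h X _ _ _ hX => reduction h X hX, fun h Z _ _ _ _ hZ => h Z hZ⟩

end Vale.Agent.Results.P079.ASeparableSpaces
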