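import Mathlib

/-!
P079 (fixed point property for nonexpansive maps): approximate fixed points always exist, and the
compact case.
-/

namespace Vale.Agent.Results.P079.ApproximateFixedPoints

open Set Function

variable {X : Type*} [NormedAddCommGroup X] [NormedSpace ℝ X] [CompleteSpace X]

theorem approx (C : Set X) (hne : C.Nonempty) (hcl : IsClosed C) (hb : Bornology.IsBounded C)
    (hcv : Convex ℝ C) (T : X → X) (hT : MapsTo T C C)
    (hn : ∀ a ∈ C, ∀ b ∈ C, ‖T a - T b‖ ≤ ‖a - b‖) (ε : ℝ) (hε : 0 < ε) :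
    ∃ x ∈ C, ‖x - T x‖ ≤ ε := by
  obtain ⟨x0, hx0⟩ := hne
  obtain ⟨D, hD⟩ := Metric.isBounded_iff.mp hb
  have hD0 : 0 ≤ D := le_trans dist_nonneg (hD hx0 hx0)
  -- the contraction parameter
  set μ : ℝ := min (1 / 2) (ε / (D + 1)) with hμ
  have hμ0 : 0 < μ := lt_min (by norm_num) (by positivity)
  have hμ1 : μ ≤ 1 / 2 := min_le_left _ _
  have hμD : μ * D ≤ ε := by
    have h1 : μ ≤ ε / (D + 1) := min_le_right _ _
    calc μ * D ≤ ε / (D + 1) * D := mul_le_mul_of_nonneg_right h1 hD0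
      _ = ε * (D / (D + 1)) := by ring
      _ ≤ ε * 1 := by
          apply mul_le_mul_of_nonneg_left _ hε.le
          rw [div_le_one (by positivity)]
          linarith
      _ = ε := mul_one ε
  let S : X → X := fun x => μ • x0 + (1 - μ) • T x
  have hS : MapsTo S C C := fun x hx =>
    hcv hx0 (hT hx) hμ0.le (by linarith) (by ring)
  let K : NNReal := ⟨1 - μ, by linarith⟩
  have hK : ContractingWith K (hS.restrict S C C) := by
    refine ⟨?_, LipschitzWith.of_dist_le_mul fun a b => ?_⟩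
    · rw [← NNReal.coe_lt_coe]
      show 1 - μ < 1
      linarith
    · show dist (S a.1) (S b.1) ≤ (1 - μ) * dist a.1 b.1
      rw [dist_eq_norm, dist_eq_norm]
      have e : S a.1 - S b.1 = (1 - μ) • (T a.1 - T b.1) := by
        simp only [S, smul_sub]
        abel
      rw [e, norm_smul, Real.norm_eq_abs, abs_of_nonneg (by linarith)]
      exact mul_le_mul_of_nonneg_left (hn a.1 a.2 b.1 b.2) (by linarith)
  obtain ⟨y, hy, hfix, -⟩ := hK.exists_fixedPoint' hcl.isComplete hS hx0 (edist_ne_top _ _)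
  refine ⟨y, hy, ?_⟩
  have hfix' : μ • x0 + (1 - μ) • T y = y := hfix
  have e : y - T y = μ • (x0 - T y) := by
    calc y - T y = (μ • x0 + (1 - μ) • T y) - T y := by rw [hfix']
      _ = μ • (x0 - T y) := by module
  rw [e, norm_smul, Real.norm_eq_abs, abs_of_pos hμ0]
  have : ‖x0 - T y‖ ≤ D := by
    rw [← dist_eq_norm]
    exact hD hx0 (hT hy)
  calc μ * ‖x0 - T y‖ ≤ μ * D := mul_le_mul_of_nonneg_left this hμ0.le
    _ ≤ ε := hμD

theorem compact_case (C : Set X) (hne : C.Nonempty) (hc : IsCompact C)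
    (hcv : Convex ℝ C) (T : X → X) (hT : MapsTo T C C)
    (hn : ∀ a ∈ C, ∀ b ∈ C, ‖T a - T b‖ ≤ ‖a - b‖) :
    ∃ x ∈ C, T x = x := by
  have hTc : ContinuousOn T C := by
    have : LipschitzOnWith 1 T C := LipschitzOnWith.of_dist_le_mul fun a ha b hb => by
      rw [dist_eq_norm, dist_eq_norm, NNReal.coe_one, one_mul]
      exact hn a ha b hb
    exact this.continuousOn
  have hg : ContinuousOn (fun x => ‖x - T x‖) C := (continuousOn_id.sub hTc).norm
  obtain ⟨x, hx, hmin⟩ := hc.exists_isMinOn hne hg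
  refine ⟨x, hx, ?_⟩
  have h0 : ‖x - T x‖ ≤ 0 := by
    refine le_of_forall_pos_le_add fun ε hε => ?_
    obtain ⟨z, hz, hzε⟩ := approx C hne hc.isClosed hc.isBounded hcv T hT hn ε hε
    have := hmin hz
    simp only [zero_add]
    exact le_trans this hzε
  have : x - T x = 0 := norm_le_zero_iff.mp h0
  exact (sub_eq_zero.mp this).symm

theorem result : ∀ (X : Type) [NormedAddCommGroup X] [NormedSpace ℝ X] [CompleteSpace X]
    (C : Set X) (T : X → X), C.Nonempty → Convex ℝ C → MapsTo T C C →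
    (∀ a ∈ C, ∀ b ∈ C, ‖T a - T b‖ ≤ ‖a - b‖) →
    ((IsClosed C → Bornology.IsBounded C → ∀ ε : ℝ, 0 < ε → ∃ x ∈ C, ‖x - T x‖ ≤ ε) ∧
      (IsCompact C → ∃ x ∈ C, T x = x)) := by
  intro X _ _ _ C T hne hcv hT hn
  exact ⟨fun hcl hb ε hε => approx C hne hcl hb hcv T hT hn ε hε,
    fun hc => compact_case C hne hc hcv T hT hn⟩

end Vale.Agent.Results.P079.ApproximateFixedPoints
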