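import Mathlib

/-!
# P079 (fixed points of nonexpansive maps): reduction to separable invariant sets

Every point of a closed convex set `C` that is mapped into itself by a nonexpansive map `T` lies in a
closed convex SEPARABLE subset `D` of `C` with `T D ⊆ D`.  Hence a fixed point free example `(X, C, T)`
restricts to a fixed point free example inside the separable closed subspace spanned by `D`.
-/

namespace Vale.Agent.Results.P079.SeparableReduction

open Set TopologicalSpace

variable {X : Type*} [NormedAddCommGroup X] [NormedSpace ℝ X]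

theorem sep_image {T : X → X} {C S : Set X} (hcont : ContinuousOn T C) (hSC : S ⊆ C)
    (hS : IsSeparable S) : IsSeparable (T '' S) := by
  obtain ⟨t, htS, htc, hSt⟩ := hS.exists_countable_dense_subset
  refine ⟨T '' t, htc.image T, ?_⟩
  rintro _ ⟨x, hx, rfl⟩
  have h1 : ContinuousWithinAt T t x := (hcont x (hSC hx)).mono (htS.trans hSC)
  exact h1.mem_closure_image (hSt hx)

theorem sep_hull {U : Set X} (hU : IsSeparable U) : IsSeparable (convexHull ℝ U) :=
  (hU.span (R := ℝ)).mono ((convexHull_subset_affineSpan U).trans affineSpan_subset_span)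

theorem result (C : Set X) (hC : IsClosed C) (hconv : Convex ℝ C) (T : X → X)
    (hT : MapsTo T C C) (hne : ∀ a ∈ C, ∀ b ∈ C, ‖T a - T b‖ ≤ ‖a - b‖) (x₀ : X) (hx₀ : x₀ ∈ C) :
    ∃ D : Set X, D ⊆ C ∧ x₀ ∈ D ∧ IsClosed D ∧ Convex ℝ D ∧ IsSeparable D ∧ MapsTo T D D ∧
      IsSeparable ((Submodule.span ℝ D).topologicalClosure : Set X) := by
  have hcont : ContinuousOn T C := by
    have : LipschitzOnWith 1 T C := by
      refine LipschitzOnWith.of_dist_le_mul ?_
      intro a ha b hb
      rw [dist_eq_norm, dist_eq_norm]
      simpa using hne a ha b hb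
    exact this.continuousOn
  let step : Set X → Set X := fun S => convexHull ℝ (S ∪ T '' S)
  let Dn : ℕ → Set X := fun n => step^[n] {x₀}
  have hsucc : ∀ n, Dn (n + 1) = convexHull ℝ (Dn n ∪ T '' Dn n) := by
    intro n
    exact Function.iterate_succ_apply' step n {x₀}
  have hDC : ∀ n, Dn n ⊆ C := by
    intro n
    induction n with
    | zero => exact singleton_subset_iff.2 hx₀
    | succ n ih =>
      rw [hsucc]
      exact convexHull_min (union_subset ih (image_subset_iff.2 (fun x hx => hT (ih hx)))) hconv
  have hmono1 : ∀ n, Dn n ⊆ Dn (n + 1) := by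
    intro n
    rw [hsucc]
    exact subset_union_left.trans (subset_convexHull ℝ _)
  have himg : ∀ n, T '' Dn n ⊆ Dn (n + 1) := by
    intro n
    rw [hsucc]
    exact subset_union_right.trans (subset_convexHull ℝ _)
  have hsep : ∀ n, IsSeparable (Dn n) := by
    intro n
    induction n with
    | zero => exact (countable_singleton x₀).isSeparable
    | succ n ih =>
      rw [hsucc]
      exact sep_hull (ih.union (sep_image hcont (hDC n) ih))
  have hcv : ∀ n, Convex ℝ (Dn n) := by
    intro n
    cases n with
    | zero => exact convex_singleton x₀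
    | succ n =>
      rw [hsucc]
      exact convex_convexHull ℝ _
  have hmono : Monotone Dn := monotone_nat_of_le_succ hmono1
  set U : Set X := ⋃ n, Dn n with hU
  have hUC : U ⊆ C := iUnion_subset hDC
  have hUsep : IsSeparable U := IsSeparable.iUnion hsep
  have hUcv : Convex ℝ U := (hmono.directed_le).convex_iUnion hcv
  have hTU : T '' U ⊆ U := by
    rintro _ ⟨x, hx, rfl⟩
    obtain ⟨n, hn⟩ := mem_iUnion.1 hx
    exact mem_iUnion.2 ⟨n + 1, himg n ⟨x, hn, rfl⟩⟩
  have hDsubC : closure U ⊆ C := closure_minimal hUC hC
  refine ⟨closure U, hDsubC, subset_closure (mem_iUnion.2 ⟨0, rfl⟩), isClosed_closure,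
    hUcv.closure, hUsep.closure, ?_, ?_⟩
  · intro x hx
    have h1 : ContinuousWithinAt T U x := (hcont x (hDsubC hx)).mono hUC
    exact closure_mono hTU (h1.mem_closure_image hx)
  · rw [Submodule.topologicalClosure_coe]
    exact (hUsep.closure.span (R := ℝ)).closure

end Vale.Agent.Results.P079.SeparableReduction
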